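import Vale.Agent.P091.AD.Base

/-!
# P091, AD block, row AD-DV (helper257): the Gibbs law (0.2)
-/

set_option autoImplicit false

open Finset Real

noncomputable section

namespace Vale.Agent.P091.AD

open Vale.Agent.P065.Ent

section perm
variable {ι L Z Γ : Type*} [Fintype ι] [DecidableEq ι] [Fintype L]

omit [DecidableEq ι] [Fintype L] in
lemma pw_perm (b : L → ℝ) (σ : Equiv.Perm ι) (u : ι → L) : pw b (fun i => u (σ i)) = pw b u := by
  unfold pw
  exact Equiv.prod_comp σ (fun i => b (u i))

omit [DecidableEq ι] [Fintype L] in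
lemma sm_perm [AddCommMonoid Γ] (N : L → Γ) (σ : Equiv.Perm ι) (u : ι → L) :
    sm N (fun i => u (σ i)) = sm N u := by
  unfold sm
  exact Equiv.sum_comp σ (fun i => N (u i))

/-- words are permuted by an equivalence -/
def permE (L : Type*) (σ : Equiv.Perm ι) : (ι → L) ≃ (ι → L) := σ.symm.arrowCongr (Equiv.refl L)

omit [Fintype ι] [DecidableEq ι] [Fintype L] in
lemma permE_apply (σ : Equiv.Perm ι) (u : ι → L) : permE L σ u = fun i => u (σ i) := by
  funext i
  simp [permE, Equiv.arrowCongr]

/-- probabilities under an invariant weight -/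
lemma Pr_equiv {Ω α : Type*} [Fintype Ω] (μ : Ω → ℝ) (e : Ω ≃ Ω) (he : ∀ ω, μ (e ω) = μ ω)
    (X : Ω → α) (x : α) : Pr μ X x = Pr μ (fun ω => X (e ω)) x := by
  classical
  unfold Pr
  rw [← Equiv.sum_comp e]
  exact sum_congr rfl fun ω _ => by rw [he]

end perm

/-- **AD-DV** -/
theorem gibbs_law : Gibbs := by
  intro Γ _ lam p
  classical
  set b : (Fin p → lam.Lt) → ℝ := pw lam.beta with hb
  have hbP : IsProb b := pw_isProb lam.beta_isProb
  set S : (Fin p → lam.Lt) → Γ := sm lam.N with hS
  set lab : (Fin p → lam.Lt) → (Fin p → lam.Z) := lb lam.zl with hlab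
  have hcp : ∀ u, lam.cp p u = Pr b (fun v => (S v, lab v)) (S u, lab u) / Pr b lab (lab u) :=
    fun u => rfl
  have hcp0 : ∀ u, 0 ≤ lam.cp p u := fun u => by
    rw [hcp]; exact div_nonneg (Pr_nonneg hbP _ _) (Pr_nonneg hbP _ _)
  have hcpp : ∀ u, 0 < b u → 0 < lam.cp p u := fun u hu => by
    rw [hcp]
    exact div_pos (Pr_pos hbP (fun v => (S v, lab v)) hu) (Pr_pos hbP lab hu)
  -- partition function
  set Zp : ℝ := ∑ u, b u * lam.cp p u with hZ
  have hZpos : 0 < Zp := by
    obtain ⟨u, hu⟩ : ∃ u, 0 < b u := by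
      by_contra hne
      push Not at hne
      have h1 : ∑ u, b u ≤ 0 := sum_nonpos fun u _ => hne u
      rw [hbP.sum] at h1
      linarith
    exact lt_of_lt_of_le (mul_pos hu (hcpp u hu))
      (single_le_sum (f := fun u => b u * lam.cp p u)
        (fun v _ => mul_nonneg (hbP.nonneg v) (hcp0 v)) (mem_univ u))
  set Q : (Fin p → lam.Lt) → ℝ := fun u => b u * lam.cp p u / Zp with hQ
  have hQ0 : ∀ u, 0 ≤ Q u := fun u => div_nonneg (mul_nonneg (hbP.nonneg u) (hcp0 u)) hZpos.le
  have hQP : IsProb Q := ⟨hQ0, by rw [hQ]; simp only; rw [← sum_div, ← hZ, div_self hZpos.ne']⟩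
  have hQb : ∀ u, 0 < Q u → 0 < b u := by
    intro u hu
    rcases (hbP.nonneg u).eq_or_lt with h0 | h0
    · exfalso
      rw [hQ] at hu
      simp only [← h0, zero_mul, zero_div, lt_irrefl] at hu
    · exact h0
  refine ⟨Q, hQP, ?_, hQb, ?_⟩
  · -- exchangeability
    intro σ u
    have h1 : b (fun i => u (σ i)) = b u := pw_perm lam.beta σ u
    have h2 : lam.cp p (fun i => u (σ i)) = lam.cp p u := by
      rw [hcp, hcp]
      have hinv : ∀ v, b (permE lam.Lt σ v) = b v := fun v => by
        rw [permE_apply]; exact pw_perm lam.beta σ v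
      have e1 : S (fun i => u (σ i)) = S u := sm_perm lam.N σ u
      have e2 : lab (fun i => u (σ i)) = fun i => lab u (σ i) := rfl
      rw [e1, e2, Pr_equiv b (permE lam.Lt σ) hinv (fun v => (S v, lab v)),
        Pr_equiv b (permE lam.Lt σ) hinv lab]
      have key : ∀ v, (lab (permE lam.Lt σ v) = fun i => lab u (σ i)) ↔ lab v = lab u := by
        intro v
        rw [permE_apply]
        constructor
        · intro h
          funext i
          have := congrFun h (σ.symm i)
          simpa [hlab, lb] using this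
        · intro h
          funext i
          exact congrFun h (σ i)
      have key2 : ∀ v, S (permE lam.Lt σ v) = S v := fun v => by
        rw [permE_apply]; exact sm_perm lam.N σ v
      congr 1
      · unfold Pr
        refine sum_congr rfl fun v _ => ?_
        have : ((S (permE lam.Lt σ v), lab (permE lam.Lt σ v)) = (S u, fun i => lab u (σ i))) ↔
            ((S v, lab v) = (S u, lab u)) := by
          rw [Prod.mk.injEq, Prod.mk.injEq, key v, key2 v]
        by_cases h : (S v, lab v) = (S u, lab u)
        · rw [if_pos h, if_pos (this.mpr h)]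
        · rw [if_neg h, if_neg fun h' => h (this.mp h')]
      · unfold Pr
        refine sum_congr rfl fun v _ => ?_
        by_cases h : lab v = lab u
        · rw [if_pos h, if_pos ((key v).mpr h)]
        · rw [if_neg h, if_neg fun h' => h ((key v).mp h')]
    show b (fun i => u (σ i)) * lam.cp p (fun i => u (σ i)) / Zp = b u * lam.cp p u / Zp
    rw [h1, h2]
  · -- entropy
    have h1 : Hc Q S lab ≤ ∑ u, Q u * (- log (lam.cp p u)) := by
      have := gibbs hQP S lab (fun l x => Pr b (fun v => (S v, lab v)) (x, l) / Pr b lab l)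
        (fun u hu => hcpp u (hQb u hu))
        (fun u x _ => div_nonneg (Pr_nonneg hbP _ _) (Pr_nonneg hbP _ _))
        (fun u => by
          rw [← sum_div, sum_Pr_pair]
          exact div_self_le_one _)
      exact this
    have h2 : Dv Q (fun u => u) b = ∑ u, Q u * (log (lam.cp p u)) + lam.Theta p := by
      unfold Dv
      have hT : lam.Theta p = ∑ u, Q u * (- log Zp) := by
        rw [← sum_mul, hQP.sum, one_mul]
        rfl
      rw [hT, ← sum_add_distrib]
      refine sum_congr rfl fun u _ => ?_
      have h3 : Pr Q (fun u => u) u = Q u := by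
        unfold Pr
        refine (sum_eq_single u (fun v _ hv => ?_) (fun h => absurd (mem_univ u) h)).trans ?_
        · exact if_neg hv
        · exact if_pos rfl
      rw [h3]
      rcases (hQ0 u).eq_or_lt with h0 | h0
      · rw [← h0]; ring
      · have hbu := hQb u h0
        have hcu := hcpp u hbu
        have h4 : Q u / b u = lam.cp p u / Zp := by
          show b u * lam.cp p u / Zp / b u = _
          field_simp
        rw [h4, log_div hcu.ne' hZpos.ne']
        ring
    have h5 : ∑ u, Q u * (- log (lam.cp p u)) + ∑ u, Q u * (log (lam.cp p u)) = 0 := by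
      rw [← sum_add_distrib]
      exact sum_eq_zero fun u _ => by ring
    show Hc Q S lab + Dv Q (fun u => u) b ≤ lam.Theta p
    rw [h2]
    linarith

end Vale.Agent.P091.AD
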