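import Vale.Agent.P091.AD.Base

/-!
# P091, AD block, row AD-7 (helper257): windows of a law on words, WinMono
-/

set_option autoImplicit false

open Finset Real

noncomputable section

namespace Vale.Agent.P091.AD

open Vale.Agent.P065.Ent

section win
variable {ι L Z Γ : Type*}

lemma LW_eq_iff (f : L → Z) (W : Finset ι) (u v : ι → L) :
    LW f W u = LW f W v ↔ ∀ i ∈ W, f (u i) = f (v i) := by
  classical
  constructor
  · intro h i hi
    have := congrFun h i
    simp only [LW, if_pos hi] at this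
    exact Option.some.inj this
  · intro h
    funext i
    by_cases hi : i ∈ W
    · simp only [LW, if_pos hi, h i hi]
    · simp only [LW, if_neg hi]

/-- a smaller window is determined by a bigger one -/
lemma det_LW_mono (f : L → Z) {W W' : Finset ι} (h : W' ⊆ W) :
    Det (LW (ι := ι) f W) (LW f W') := fun u v e =>
  (LW_eq_iff f W' u v).2 fun i hi => (LW_eq_iff f W u v).1 e i (h hi)

/-- the letters of a window determine all functions of the letters -/
lemma det_LW_id (f : L → Z) (W : Finset ι) :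
    Det (LW (ι := ι) (fun l : L => l) W) (LW f W) := fun u v e =>
  (LW_eq_iff f W u v).2 fun i hi => by rw [(LW_eq_iff (fun l : L => l) W u v).1 e i hi]

lemma det_LW_SW [AddCommMonoid Γ] (N : L → Γ) (W : Finset ι) :
    Det (LW (ι := ι) (fun l : L => l) W) (SW N W) := fun u v e => by
  unfold SW
  exact sum_congr rfl fun i hi => by rw [(LW_eq_iff (fun l : L => l) W u v).1 e i hi]

lemma det_LW_apply (f : L → Z) {W : Finset ι} {i : ι} (hi : i ∈ W) :
    Det (LW (ι := ι) f W) (fun u => f (u i)) := fun u v e =>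
  (LW_eq_iff f W u v).1 e i hi

/-- the union of two windows -/
lemma det_LW_union [DecidableEq ι] (f : L → Z) (A B : Finset ι) :
    Det (fun u : ι → L => (LW f A u, LW f B u)) (LW f (A ∪ B)) := fun u v e => by
  obtain ⟨e1, e2⟩ := Prod.mk.inj e
  refine (LW_eq_iff f _ u v).2 fun i hi => ?_
  rcases mem_union.1 hi with h | h
  · exact (LW_eq_iff f A u v).1 e1 i h
  · exact (LW_eq_iff f B u v).1 e2 i h

variable [Fintype ι] [DecidableEq ι] [Fintype L]

lemma H_LW_union (Q : (ι → L) → ℝ) (f : L → Z) (A B : Finset ι) :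
    H Q (LW f (A ∪ B)) = H Q (fun u => (LW f A u, LW f B u)) :=
  H_congr ((det_LW_mono f subset_union_left).pair (det_LW_mono f subset_union_right))
    (det_LW_union f A B)

/-- total correlation of the window `W` -/
def TW (Q : (ι → L) → ℝ) (W : Finset ι) : ℝ :=
  (∑ i ∈ W, H Q (fun u => u i)) - H Q (LW (fun l : L => l) W)

lemma TW_empty {Q : (ι → L) → ℝ} (hQ : IsProb Q) : TW Q ∅ = 0 := by
  unfold TW
  have h1 : (LW (fun l : L => l) (∅ : Finset ι)) = fun _ => fun _ => none := by
    funext u i
    simp [LW]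
  rw [h1, H_of_const hQ, sum_empty, sub_zero]

lemma TW_univ (Q : (ι → L) → ℝ) : TW Q univ = TC Q := by
  unfold TW TC
  rw [H_congr (X := LW (fun l : L => l) univ) (Y := fun u : ι → L => u)]
  · intro u v e
    funext i
    exact (LW_eq_iff (fun l : L => l) univ u v).1 e i (mem_univ i)
  · intro u v e
    exact (LW_eq_iff _ _ _ _).2 fun i _ => congrFun e i

lemma TW_insert {Q : (ι → L) → ℝ} (hQ : IsProb Q) {W : Finset ι} {i : ι} (hi : i ∉ W) :
    TW Q W ≤ TW Q (insert i W) := by
  unfold TW
  rw [sum_insert hi]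
  have h1 : H Q (LW (fun l : L => l) (insert i W)) ≤
      H Q (fun u => ((fun u : ι → L => u i) u, LW (fun l : L => l) W u)) := by
    refine H_mono hQ fun u v e => ?_
    obtain ⟨e1, e2⟩ := Prod.mk.inj e
    refine (LW_eq_iff _ _ u v).2 fun j hj => ?_
    rcases mem_insert.1 hj with h | h
    · rw [h]; exact e1
    · exact (LW_eq_iff _ W u v).1 e2 j h
  have h2 := H_pair_le hQ (fun u : ι → L => u i) (LW (fun l : L => l) W)
  linarith

lemma TW_mono {Q : (ι → L) → ℝ} (hQ : IsProb Q) {W W' : Finset ι} (h : W ⊆ W') :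
    TW Q W ≤ TW Q W' := by
  classical
  have : ∀ A : Finset ι, Disjoint W A → TW Q W ≤ TW Q (W ∪ A) := by
    intro A
    induction A using Finset.induction_on with
    | empty => intro _; rw [union_empty]
    | insert a A ha ih =>
      intro hd
      rw [disjoint_insert_right] at hd
      refine (ih hd.2).trans ?_
      rw [union_insert]
      exact TW_insert hQ (by
        rw [mem_union]
        rintro (h1 | h1)
        · exact hd.1 h1
        · exact ha h1)
  have h2 := this (W' \ W) disjoint_sdiff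
  rwa [union_sdiff_of_subset h] at h2

lemma TW_nonneg {Q : (ι → L) → ℝ} (hQ : IsProb Q) (W : Finset ι) : 0 ≤ TW Q W := by
  rw [← TW_empty hQ]; exact TW_mono hQ (empty_subset W)

lemma TC_nonneg {Q : (ι → L) → ℝ} (hQ : IsProb Q) : 0 ≤ TC Q := by
  rw [← TW_univ]; exact TW_nonneg hQ _

lemma TW_le_TC {Q : (ι → L) → ℝ} (hQ : IsProb Q) (W : Finset ι) : TW Q W ≤ TC Q := by
  rw [← TW_univ]; exact TW_mono hQ (subset_univ W)

/-- the information between disjoint windows is at most the total correlation -/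
lemma info_le_TW {Q : (ι → L) → ℝ} (hQ : IsProb Q) {A B : Finset ι} (h : Disjoint A B) :
    H Q (LW (fun l : L => l) A) + H Q (LW (fun l : L => l) B)
      - H Q (LW (fun l : L => l) (A ∪ B)) ≤ TW Q (A ∪ B) := by
  have h1 := TW_nonneg hQ A
  have h2 := TW_nonneg hQ B
  unfold TW at h1 h2 ⊢
  rw [sum_union h]
  linarith

lemma hW_nonneg [AddCommMonoid Γ] {Q : (ι → L) → ℝ} (hQ : IsProb Q) (N : L → Γ) (zl : L → Z)
    (W : Finset ι) : 0 ≤ hW Q N zl W := Hc_nonneg hQ _ _

/-- window entropies are almost monotone -/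
lemma hW_le [AddCommGroup Γ] {Q : (ι → L) → ℝ} (hQ : IsProb Q) (N : L → Γ) (zl : L → Z)
    {A B : Finset ι} (h : Disjoint A B) :
    hW Q N zl A ≤ hW Q N zl (A ∪ B) + TW Q (A ∪ B) := by
  set V : Finset ι → (ι → L) → (ι → Option L) := fun W => LW (fun l : L => l) W with hV
  set lab : Finset ι → (ι → L) → (ι → Option Z) := fun W => LW zl W with hlab
  have hS : ∀ u, SW N (A ∪ B) u = SW N A u + SW N B u := fun u => by
    unfold SW; exact sum_union h
  -- add the letters of `B`
  have e1 : Hc Q (SW N A) (fun u => (lab A u, V B u)) ≤ Hc Q (SW N (A ∪ B)) (lab (A ∪ B)) := by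
    have h1 : Hc Q (SW N (A ∪ B)) (fun u => (lab (A ∪ B) u, V B u)) ≤
        Hc Q (SW N (A ∪ B)) (lab (A ∪ B)) := Hc_anti hQ _ (det_fst _ _)
    have h2 : Hc Q (SW N (A ∪ B)) (fun u => (lab (A ∪ B) u, V B u)) =
        Hc Q (SW N A) (fun u => (lab A u, V B u)) := by
      unfold Hc
      have d1 : Det (fun u => (lab (A ∪ B) u, V B u)) (fun u => (lab A u, V B u)) :=
        ((det_fst _ _).trans (det_LW_mono zl subset_union_left)).pair (det_snd _ _)
      have d2 : Det (fun u => (lab A u, V B u)) (fun u => (lab (A ∪ B) u, V B u)) :=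
        (((det_fst _ _).pair ((det_snd (lab A) (V B)).trans (det_LW_id zl B))).trans
          (det_LW_union zl A B)).pair (det_snd _ _)
      rw [H_congr d1 d2]
      congr 1
      refine H_congr ?_ ?_
      · intro u v e
        obtain ⟨e1, e2⟩ := Prod.mk.inj e
        have e3 : SW N B u = SW N B v := det_LW_SW N B u v (Prod.mk.inj e2).2
        refine Prod.ext ?_ (d1 u v e2)
        show SW N A u = SW N A v
        rw [hS, hS, e3] at e1
        exact add_right_cancel e1
      · intro u v e
        obtain ⟨e1, e2⟩ := Prod.mk.inj e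
        have e3 : SW N B u = SW N B v := det_LW_SW N B u v (Prod.mk.inj e2).2
        refine Prod.ext ?_ (d2 u v e2)
        show SW N (A ∪ B) u = SW N (A ∪ B) v
        rw [hS, hS, e1, e3]
    rw [← h2]
    exact h1
  -- remove the letters of `B`
  have e2 : I Q (SW N A) (V B) (lab A) ≤ TW Q (A ∪ B) := by
    rw [I_symm]
    unfold I
    have h1 : Hc Q (V B) (lab A) ≤ H Q (V B) := Hc_le_H hQ _ _
    have h2 : Hc Q (V B) (V A) ≤ Hc Q (V B) (fun u => (SW N A u, lab A u)) :=
      Hc_anti hQ _ ((det_LW_SW N A).pair (det_LW_id zl A))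
    have h3 : Hc Q (V B) (V A) = H Q (V (A ∪ B)) - H Q (V A) := by
      unfold Hc
      rw [H_swap]
      rw [← H_LW_union Q (fun l : L => l) A B]
    have h4 := info_le_TW hQ h
    linarith
  have e3 : I Q (SW N A) (V B) (lab A) =
      Hc Q (SW N A) (lab A) - Hc Q (SW N A) (fun u => (lab A u, V B u)) := by
    unfold I
    rw [Hc_congr (Det.refl (SW N A)) (Det.refl (SW N A)) (det_swap (V B) (lab A))
      (det_swap (lab A) (V B))]
  show Hc Q (SW N A) (lab A) ≤ Hc Q (SW N (A ∪ B)) (lab (A ∪ B)) + TW Q (A ∪ B)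
  linarith

end win

/-- **AD-TCH** -/
theorem winMono : WinMono := by
  intro Γ L Z _ _ N zl n j k Q hQ _ hjk _
  classical
  refine ⟨TC_nonneg hQ, hW_nonneg hQ N zl _, ?_⟩
  have hsub : first n j ⊆ first n k := fun i hi => by
    simp only [first, mem_filter, mem_univ, true_and] at hi ⊢
    omega
  have h1 := hW_le hQ N zl (A := first n j) (B := first n k \ first n j) disjoint_sdiff
  rw [union_sdiff_of_subset hsub] at h1
  exact h1.trans (add_le_add_right (TW_le_TC hQ _) _)

end Vale.Agent.P091.AD
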